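import Vale.Agent.P181.R2.H207.KDefs

set_option autoImplicit false

namespace Vale.Agent.P181.KT

open Finset

namespace K10H

theorem exists_le {m : ℕ} (ν : Fin m → ℕ) (c : ℕ) (h : c ≤ ∑ i, ν i) :
    ∃ v : Fin m → ℕ, v ≤ ν ∧ ∑ i, v i = c := by
  induction c with
  | zero => exact ⟨0, fun i => Nat.zero_le _, by simp⟩
  | succ c ih =>
    obtain ⟨v, hv, hs⟩ := ih (by omega)
    have : ∃ i, v i < ν i := by
      by_contra hc
      push Not at hc
      have := Finset.sum_le_sum (fun i (_ : i ∈ (univ : Finset (Fin m))) => hc i)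
      omega
    obtain ⟨i, hi⟩ := this
    refine ⟨v + Pi.single i 1, ?_, ?_⟩
    · intro j
      by_cases hj : j = i
      · subst hj
        simp only [Pi.add_apply, Pi.single_eq_same]
        omega
      · simp only [Pi.add_apply, Pi.single_eq_of_ne hj, add_zero]
        exact hv j
    · simp only [Pi.add_apply]
      rw [Finset.sum_add_distrib, hs, Finset.sum_pi_single']
      simp

theorem exists_tuple {m c : ℕ} : ∀ (b : ℕ) (ν : Fin m → ℕ), ∑ i, ν i = b * c →
    ∃ f : Fin b → Fin m → ℕ, (∀ j, ∑ i, f j i = c) ∧ ∑ j, f j = ν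
  | 0, ν, h => by
    refine ⟨Fin.elim0, fun j => j.elim0, ?_⟩
    have h0 : ∑ i, ν i = 0 := by simpa using h
    have h1 := (Finset.sum_eq_zero_iff.1 h0)
    funext i
    simp [h1 i (mem_univ i)]
  | b + 1, ν, h => by
    obtain ⟨v, hv, hs⟩ := exists_le ν c (by rw [h]; nlinarith)
    have h2 : ∑ i, (ν - v) i = b * c := by
      have h3 : ∑ i, (ν - v) i + ∑ i, v i = ∑ i, ν i := by
        rw [← Finset.sum_add_distrib]
        refine Finset.sum_congr rfl fun i _ => ?_
        have h7 : v i ≤ ν i := hv i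
        simp only [Pi.sub_apply]
        omega
      rw [hs, h] at h3
      nlinarith
    obtain ⟨f, hf, hfs⟩ := exists_tuple b (ν - v) h2
    refine ⟨Fin.cons v f, ?_, ?_⟩
    · intro j
      refine Fin.cases ?_ (fun k => ?_) j
      · simpa using hs
      · simpa using hf k
    · rw [Fin.sum_univ_succ]
      simp only [Fin.cons_zero, Fin.cons_succ]
      rw [hfs]
      exact add_tsub_cancel_of_le hv

end K10H

/-- K10 (trivial bounds). -/
theorem k10 : (∀ {m c b : ℕ} (ν : Fin m → ℕ), ∑ i, ν i = b * c → 1 ≤ NN m c b ν) ∧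
    ∀ m c : ℕ, 1 ≤ m → ZZ m c 0 ≤ ((c : ℝ) + 1) ^ (m - 1) := by
  constructor
  · intro m c b ν h
    obtain ⟨f, hf, hs⟩ := K10H.exists_tuple b ν h
    refine Finset.card_pos.2 ⟨f, ?_⟩
    rw [mem_filter, Fintype.mem_piFinset]
    refine ⟨fun j => ?_, hs⟩
    rw [Mn, Finset.mem_piAntidiag]
    exact ⟨hf j, fun i _ => mem_univ i⟩
  · intro m c hm
    obtain ⟨k, rfl⟩ : ∃ k, m = k + 1 := ⟨m - 1, by omega⟩
    have h1 : ZZ (k + 1) c 0 = ((Mn (k + 1) c).card : ℝ) := by
      simp [ZZ]
    rw [h1]
    have h2 : (Mn (k + 1) c).card ≤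
        (Fintype.piFinset (fun _ : Fin k => Finset.range (c + 1))).card := by
      refine Finset.card_le_card_of_injOn (fun u i => u i.succ) ?_ ?_
      · intro u hu
        rw [mem_coe, Mn, Finset.mem_piAntidiag] at hu
        rw [mem_coe, Fintype.mem_piFinset]
        intro i
        rw [mem_range]
        have h8 : u i.succ ≤ ∑ j, u j :=
          Finset.single_le_sum (f := u) (fun j _ => Nat.zero_le (u j)) (mem_univ i.succ)
        have h3 : ∑ j, u j = c := hu.1
        change u i.succ < c + 1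
        omega
      · intro u hu v hv huv
        rw [mem_coe, Mn, Finset.mem_piAntidiag] at hu hv
        have h3 : ∀ i : Fin k, u i.succ = v i.succ := fun i => congrFun huv i
        have h4 : ∑ j, u j = c := hu.1
        have h5 : ∑ j, v j = c := hv.1
        rw [Fin.sum_univ_succ] at h4 h5
        have h6 : ∑ i : Fin k, u i.succ = ∑ i : Fin k, v i.succ :=
          Finset.sum_congr rfl fun i _ => h3 i
        funext j
        refine Fin.cases ?_ (fun i => h3 i) j
        omega
    rw [Fintype.card_piFinset] at h2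
    simp only [card_range, prod_const, card_univ, Fintype.card_fin] at h2
    calc ((Mn (k + 1) c).card : ℝ) ≤ (((c + 1) ^ k : ℕ) : ℝ) := by exact_mod_cast h2
      _ = ((c : ℝ) + 1) ^ (k + 1 - 1) := by push_cast; simp

end Vale.Agent.P181.KT
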