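import Vale.Agent.P181.R2.H959.VDefs
import Vale.Agent.P181.R2.H9.FR3

set_option autoImplicit false

namespace Vale.Agent.P181.FR

open Vale.Agent.P181 Vale.Agent.P181.H280

namespace V2H

theorem MP_one (B m : ℕ) : (1 : (Fin B → Fin m → ℂ) → ℂ) ∈ MP B m 0 := by
  refine Submodule.subset_span ⟨fun _ => 1, fun _ => MvPolynomial.isHomogeneous_one _ _, ?_⟩
  funext p
  simp

theorem MP_pow {B m a : ℕ} {G : (Fin B → Fin m → ℂ) → ℂ} (hG : G ∈ MP B m a) (n : ℕ) :
    G ^ n ∈ MP B m (n * a) := by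
  induction n with
  | zero => rw [pow_zero, zero_mul]; exact MP_one B m
  | succ n ih =>
    rw [pow_succ, Nat.succ_mul]
    exact MP_mul ih hG

theorem MP_prod {ι : Type} {B m a : ℕ} (s : Finset ι) (Y : ι → (Fin B → Fin m → ℂ) → ℂ)
    (h : ∀ S ∈ s, Y S ∈ MP B m a) : (∏ S ∈ s, Y S) ∈ MP B m (s.card * a) := by
  classical
  induction s using Finset.induction_on with
  | empty => simpa using MP_one B m
  | insert x s hx ih =>
    rw [Finset.prod_insert hx, Finset.card_insert_of_notMem hx, Nat.succ_mul, add_comm]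
    exact MP_mul (h x (Finset.mem_insert_self _ _))
      (ih fun S hS => h S (Finset.mem_insert_of_mem hS))

theorem HWF_one (B m : ℕ) : HWF B m 0 (1 : (Fin B → Fin m → ℂ) → ℂ) := by
  intro g _ p
  simp

theorem HWF_mul {B m : ℕ} {lam mu : Fin m → ℕ} {G H : (Fin B → Fin m → ℂ) → ℂ}
    (hG : HWF B m lam G) (hH : HWF B m mu H) : HWF B m (lam + mu) (G * H) := by
  intro g hg p
  rw [Pi.mul_apply, Pi.mul_apply, hG g hg p, hH g hg p]
  simp only [Pi.add_apply, pow_add, Finset.prod_mul_distrib]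
  ring

theorem HWF_pow {B m : ℕ} {lam : Fin m → ℕ} {G : (Fin B → Fin m → ℂ) → ℂ}
    (hG : HWF B m lam G) (n : ℕ) : HWF B m (n • lam) (G ^ n) := by
  induction n with
  | zero => rw [pow_zero, zero_smul]; exact HWF_one B m
  | succ n ih =>
    rw [pow_succ, succ_nsmul]
    exact HWF_mul ih hG

theorem HWF_prod {ι : Type} {B m : ℕ} {lam : Fin m → ℕ} (s : Finset ι)
    (Y : ι → (Fin B → Fin m → ℂ) → ℂ) (h : ∀ S ∈ s, HWF B m lam (Y S)) :
    HWF B m (s.card • lam) (∏ S ∈ s, Y S) := by
  classical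
  induction s using Finset.induction_on with
  | empty => simpa using HWF_one B m
  | insert x s hx ih =>
    rw [Finset.prod_insert hx, Finset.card_insert_of_notMem hx, succ_nsmul, add_comm]
    exact HWF_mul (h x (Finset.mem_insert_self _ _))
      (ih fun S hS => h S (Finset.mem_insert_of_mem hS))

theorem HWF_sum {ι : Type} {B m : ℕ} {lam : Fin m → ℕ} (s : Finset ι)
    (Y : ι → (Fin B → Fin m → ℂ) → ℂ) (h : ∀ S ∈ s, HWF B m lam (Y S)) :
    HWF B m lam (∑ S ∈ s, Y S) := by
  intro g hg p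
  rw [Finset.sum_apply, Finset.sum_apply, Finset.mul_sum]
  exact Finset.sum_congr rfl fun S hS => h S hS g hg p

theorem card_sub {i : ℕ} (hi : 1 ≤ i) : (sub i).card = (2 * i).choose i := by
  rw [sub, Finset.card_powersetCard, Finset.card_univ, Fintype.card_fin]
  congr 1
  omega

theorem mem_sub_map {i : ℕ} (σ : Equiv.Perm (Fin (2 * i - 1 + 1)))
    (S : Finset (Fin (2 * i - 1 + 1))) : S ∈ sub i ↔ S.map σ.toEmbedding ∈ sub i := by
  rw [sub, Finset.mem_powersetCard, Finset.mem_powersetCard, Finset.card_map]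
  simp

end V2H

open V2H

theorem G_props_of {m i : ℕ} (hi : 3 ≤ i) (him : i ≤ m)
    (h1 : ∀ S ∈ sub i, YS him S ∈ MP (2 * i - 1 + 1) m 2)
    (h2 : ∀ S ∈ sub i, HWF (2 * i - 1 + 1) m (4 • om m i) (YS him S))
    (h3 : ∀ (S : Finset (Fin (2 * i - 1 + 1))) (σ : Equiv.Perm (Fin (2 * i - 1 + 1)))
      (p : Fin (2 * i - 1 + 1) → Fin m → ℂ),
      YS him S (fun j => p (σ j)) = YS him (S.map σ.toEmbedding) p)
    (h4 : ∀ S ∈ sub i, ∀ u ∈ S, ∀ v ∈ S, u ≠ v → ∀ p : Fin (2 * i - 1 + 1) → Fin m → ℂ,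
      p u = p v → YS him S p = 0)
    {al be ga c : ℕ}
    (hc : al + ((2 * i).choose i - 1) * be + (2 * i).choose i * (1 + ga) = c) :
    (F1 him ^ al * F2 him ^ be * F3 him ^ (1 + ga)) ∈ MP (2 * i - 1 + 1) m (2 * c) ∧
    (∀ (σ : Equiv.Perm (Fin (2 * i - 1 + 1))) p,
      (F1 him ^ al * F2 him ^ be * F3 him ^ (1 + ga)) (fun j => p (σ j)) =
        (F1 him ^ al * F2 him ^ be * F3 him ^ (1 + ga)) p) ∧
    HWF (2 * i - 1 + 1) m ((4 * c) • om m i) (F1 him ^ al * F2 him ^ be * F3 him ^ (1 + ga)) ∧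
    (∀ p (u v : Fin (2 * i - 1 + 1)), u ≠ v → p u = p v →
      (F1 him ^ al * F2 him ^ be * F3 him ^ (1 + ga)) p = 0) := by
  have hN : (sub i).card = (2 * i).choose i := card_sub (by omega)
  have e1 : F1 him = ∑ S ∈ sub i, YS him S := by
    funext p
    rw [F1, Finset.sum_apply]
  have e2 : F2 him = ∑ S ∈ sub i, ∏ S' ∈ (sub i).erase S, YS him S' := by
    funext p
    rw [F2, Finset.sum_apply]
    refine Finset.sum_congr rfl fun S _ => ?_
    rw [Finset.prod_apply]
  have e3 : F3 him = ∏ S ∈ sub i, YS him S := by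
    funext p
    rw [F3, Finset.prod_apply]
  refine ⟨?_, ?_, ?_, ?_⟩
  · have m1 : F1 him ∈ MP (2 * i - 1 + 1) m 2 := by
      rw [e1]
      exact Submodule.sum_mem _ fun S hS => h1 S hS
    have m2 : F2 him ∈ MP (2 * i - 1 + 1) m (((2 * i).choose i - 1) * 2) := by
      rw [e2]
      refine Submodule.sum_mem _ fun S hS => ?_
      have := MP_prod ((sub i).erase S) (YS him)
        (fun S' hS' => h1 S' (Finset.mem_of_mem_erase hS'))
      rwa [Finset.card_erase_of_mem hS, hN] at this
    have m3 : F3 him ∈ MP (2 * i - 1 + 1) m ((2 * i).choose i * 2) := by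
      rw [e3]
      have := MP_prod (sub i) (YS him) h1
      rwa [hN] at this
    have m4 := MP_mul (MP_mul (MP_pow m1 al) (MP_pow m2 be)) (MP_pow m3 (1 + ga))
    have e : al * 2 + be * (((2 * i).choose i - 1) * 2) + (1 + ga) * ((2 * i).choose i * 2) =
        2 * c := by
      rw [← hc]
      ring
    rwa [e] at m4
  · intro σ p
    have s1 : F1 him (fun j => p (σ j)) = F1 him p := by
      unfold F1
      refine Finset.sum_equiv (Equiv.finsetCongr σ) (fun S => mem_sub_map σ S) fun S _ => ?_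
      exact h3 S σ p
    have s3 : F3 him (fun j => p (σ j)) = F3 him p := by
      unfold F3
      refine Finset.prod_equiv (Equiv.finsetCongr σ) (fun S => mem_sub_map σ S) fun S _ => ?_
      exact h3 S σ p
    have s2 : F2 him (fun j => p (σ j)) = F2 him p := by
      unfold F2
      refine Finset.sum_equiv (Equiv.finsetCongr σ) (fun S => mem_sub_map σ S) fun S _ => ?_
      refine Finset.prod_equiv (Equiv.finsetCongr σ) (fun S' => ?_) fun S' _ => h3 S' σ p
      rw [Finset.mem_erase, Finset.mem_erase]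
      refine and_congr ?_ (mem_sub_map σ S')
      exact (Equiv.injective (Equiv.finsetCongr σ)).ne_iff.symm
    simp only [Pi.mul_apply, Pi.pow_apply]
    rw [s1, s2, s3]
  · have w1 : HWF (2 * i - 1 + 1) m (4 • om m i) (F1 him) := by
      rw [e1]
      exact HWF_sum _ _ h2
    have w2 : HWF (2 * i - 1 + 1) m (((2 * i).choose i - 1) • (4 • om m i)) (F2 him) := by
      rw [e2]
      refine HWF_sum _ _ fun S hS => ?_
      have := HWF_prod ((sub i).erase S) (YS him)
        (fun S' hS' => h2 S' (Finset.mem_of_mem_erase hS'))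
      rwa [Finset.card_erase_of_mem hS, hN] at this
    have w3 : HWF (2 * i - 1 + 1) m ((2 * i).choose i • (4 • om m i)) (F3 him) := by
      rw [e3]
      have := HWF_prod (sub i) (YS him) h2
      rwa [hN] at this
    have w4 := HWF_mul (HWF_mul (HWF_pow w1 al) (HWF_pow w2 be)) (HWF_pow w3 (1 + ga))
    have e : al • (4 • om m i) + be • (((2 * i).choose i - 1) • (4 • om m i)) +
        (1 + ga) • ((2 * i).choose i • (4 • om m i)) = (4 * c) • om m i := by
      rw [← hc]
      simp only [← mul_smul, ← add_smul]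
      congr 1
      ring
    rwa [e] at w4
  · intro p u v huv hp
    obtain ⟨S, hS1, -, hS2⟩ := Finset.exists_subsuperset_card_eq
      (Finset.subset_univ ({u, v} : Finset (Fin (2 * i - 1 + 1))))
      (n := i) (by rw [Finset.card_pair huv]; omega)
      (by rw [Finset.card_univ, Fintype.card_fin]; omega)
    have hS : S ∈ sub i := by
      rw [sub, Finset.mem_powersetCard]
      exact ⟨Finset.subset_univ _, hS2⟩
    have h0 : F3 him p = 0 := by
      unfold F3
      refine Finset.prod_eq_zero hS ?_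
      exact h4 S hS u (hS1 (by simp)) v (hS1 (by simp)) huv p hp
    simp only [Pi.mul_apply, Pi.pow_apply]
    rw [h0, zero_pow (by omega), mul_zero]

end Vale.Agent.P181.FR
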