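import Vale.Agent.P181.R2.H959.VDefs
import Vale.Agent.P181.R2.H287.V2
import Vale.Agent.P181.R2.H379.Cyc

set_option autoImplicit false

namespace Vale.Agent.P181.FR

open Vale.Agent.P181 Vale.Agent.P181.H280

namespace V1H

theorem dg1_of {B i : ℕ} {S : Finset (Fin B)} (h : S.card = i) (b : Fin B) :
    Cyc.dg1 (S.orderEmbOfFin h) b = if b ∈ S then 1 else 0 := by
  unfold Cyc.dg1
  by_cases hb : b ∈ S
  · rw [if_pos hb]
    have hr : b ∈ Set.range (S.orderEmbOfFin h) := by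
      rw [Finset.range_orderEmbOfFin]
      exact hb
    obtain ⟨t, ht⟩ := hr
    rw [Finset.sum_eq_single t]
    · rw [if_pos ht]
    · intro s _ hs
      rw [if_neg]
      intro h1
      exact hs ((S.orderEmbOfFin h).injective (h1.trans ht.symm))
    · intro h1
      exact absurd (Finset.mem_univ t) h1
  · rw [if_neg hb]
    refine Finset.sum_eq_zero fun t _ => ?_
    rw [if_neg]
    intro h1
    exact hb (h1 ▸ Finset.orderEmbOfFin_mem S h t)

theorem mnr_eq {B m i : ℕ} (him : i ≤ m) {S : Finset (Fin B)} (h : S.card = i) :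
    mnr him S = Cyc.mn him (S.orderEmbOfFin h) := by
  funext p
  rw [mnr, dif_pos h]
  rfl

theorem mn_sq {B m i : ℕ} (him : i ≤ m) {S : Finset (Fin B)} (h : S.card = i) (f : Fin i → Fin B)
    (hf : Function.Injective f) (hfS : ∀ t, f t ∈ S) (p : Fin B → Fin m → ℂ) :
    (Cyc.mn him f p) ^ 2 = (mnr him S p) ^ 2 := by
  have hx : ∀ t, ∃ s, S.orderEmbOfFin h s = f t := by
    intro t
    have hr : f t ∈ Set.range (S.orderEmbOfFin h) := by
      rw [Finset.range_orderEmbOfFin]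
      exact hfS t
    exact hr
  choose τ hτ using hx
  have hinj : Function.Injective τ := by
    intro a b hab
    apply hf
    rw [← hτ a, ← hτ b, hab]
  let e : Equiv.Perm (Fin i) := Equiv.ofBijective τ (Finite.injective_iff_bijective.1 hinj)
  have h1 : Cyc.mn him f p = ((Equiv.Perm.sign e : ℤ) : ℂ) * mnr him S p := by
    rw [mnr, dif_pos h, ← Matrix.det_permute]
    unfold Cyc.mn
    congr 1
    ext j k
    simp only [Matrix.of_apply, Matrix.submatrix_apply, id_eq]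
    rw [← hτ j]
    rfl
  rw [h1, mul_pow]
  have h2 : (((Equiv.Perm.sign e : ℤ) : ℂ)) ^ 2 = 1 := by
    rcases Int.units_eq_one_or (Equiv.Perm.sign e) with h | h <;> rw [h] <;> simp
  rw [h2, one_mul]

theorem mnr_perm {B m i : ℕ} (him : i ≤ m) (S : Finset (Fin B)) (σ : Equiv.Perm (Fin B))
    (p : Fin B → Fin m → ℂ) :
    (mnr him S (fun j => p (σ j))) ^ 2 = (mnr him (S.map σ.toEmbedding) p) ^ 2 := by
  by_cases h : S.card = i
  · have h' : (S.map σ.toEmbedding).card = i := by rw [Finset.card_map, h]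
    rw [mnr_eq him h, ← mn_sq him h' (fun t => σ (S.orderEmbOfFin h t))]
    · rfl
    · exact σ.injective.comp (S.orderEmbOfFin h).injective
    · intro t
      rw [Finset.mem_map]
      exact ⟨_, Finset.orderEmbOfFin_mem S h t, rfl⟩
  · have h' : ¬ (S.map σ.toEmbedding).card = i := by rwa [Finset.card_map]
    rw [mnr, mnr, dif_neg h, dif_neg h']

theorem compl_map {B : ℕ} (S : Finset (Fin B)) (σ : Equiv.Perm (Fin B)) :
    Sᶜ.map σ.toEmbedding = (S.map σ.toEmbedding)ᶜ := by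
  ext x
  rw [Finset.mem_compl, Finset.mem_map_equiv, Finset.mem_map_equiv, Finset.mem_compl]

theorem card_of {i : ℕ} {S : Finset (Fin (2 * i - 1 + 1))} (hS : S ∈ sub i) : S.card = i :=
  (Finset.mem_powersetCard.1 hS).2

theorem card_compl_of {i : ℕ} (hi : 1 ≤ i) {S : Finset (Fin (2 * i - 1 + 1))} (hS : S ∈ sub i) :
    Sᶜ.card = i := by
  rw [Finset.card_compl, card_of hS, Fintype.card_fin]
  omega

theorem YS_eq {m i : ℕ} (hi : 1 ≤ i) (him : i ≤ m) {S : Finset (Fin (2 * i - 1 + 1))}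
    (hS : S ∈ sub i) : YS him S = (Cyc.mn him (S.orderEmbOfFin (card_of hS)) *
      Cyc.mn him (Sᶜ.orderEmbOfFin (card_compl_of hi hS))) ^ 2 := by
  rw [← mnr_eq, ← mnr_eq]
  rfl

end V1H

open V1H

theorem YS_MP {m i : ℕ} (hi : 1 ≤ i) (him : i ≤ m) {S : Finset (Fin (2 * i - 1 + 1))}
    (hS : S ∈ sub i) : YS him S ∈ MP (2 * i - 1 + 1) m 2 := by
  rw [YS_eq hi him hS]
  have h := Cyc.MQ_mul (Cyc.mn_MQ him (S.orderEmbOfFin (card_of hS)))
    (Cyc.mn_MQ him (Sᶜ.orderEmbOfFin (card_compl_of hi hS)))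
  have e : Cyc.dg1 (S.orderEmbOfFin (card_of hS)) +
      Cyc.dg1 (Sᶜ.orderEmbOfFin (card_compl_of hi hS)) = fun _ => 1 := by
    funext b
    rw [Pi.add_apply, dg1_of, dg1_of]
    by_cases hb : b ∈ S
    · rw [if_pos hb, if_neg (by rw [Finset.mem_compl]; exact not_not.2 hb)]
    · rw [if_neg hb, if_pos (Finset.mem_compl.2 hb)]
  rw [e, Cyc.MQ_const] at h
  exact V2H.MP_pow h 2

theorem YS_HWF {m i : ℕ} (hi : 1 ≤ i) (him : i ≤ m) {S : Finset (Fin (2 * i - 1 + 1))}
    (hS : S ∈ sub i) : HWF (2 * i - 1 + 1) m (4 • om m i) (YS him S) := by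
  rw [YS_eq hi him hS]
  have h := V2H.HWF_pow (V2H.HWF_mul (Cyc.mn_wt him (S.orderEmbOfFin (card_of hS)))
    (Cyc.mn_wt him (Sᶜ.orderEmbOfFin (card_compl_of hi hS)))) 2
  have e : 2 • (om m i + om m i) = 4 • om m i := by
    rw [← two_nsmul, ← mul_smul]
    norm_num
  rwa [e] at h

theorem YS_perm {B m i : ℕ} (him : i ≤ m) (S : Finset (Fin B)) (σ : Equiv.Perm (Fin B))
    (p : Fin B → Fin m → ℂ) :
    YS him S (fun j => p (σ j)) = YS him (S.map σ.toEmbedding) p := by
  rw [YS, YS, mul_pow, mul_pow, mnr_perm, mnr_perm, compl_map]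

theorem YS_diag {B m i : ℕ} (him : i ≤ m) {S : Finset (Fin B)} {u v : Fin B} (hu : u ∈ S)
    (hv : v ∈ S) (huv : u ≠ v) {p : Fin B → Fin m → ℂ} (h : p u = p v) : YS him S p = 0 := by
  have h0 : mnr him S p = 0 := by
    by_cases hc : S.card = i
    · rw [mnr, dif_pos hc]
      have hr1 : u ∈ Set.range (S.orderEmbOfFin hc) := by
        rw [Finset.range_orderEmbOfFin]
        exact hu
      have hr2 : v ∈ Set.range (S.orderEmbOfFin hc) := by
        rw [Finset.range_orderEmbOfFin]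
        exact hv
      obtain ⟨s, hs⟩ := hr1
      obtain ⟨t, ht⟩ := hr2
      have hst : s ≠ t := by
        intro hst
        exact huv (by rw [← hs, ← ht, hst])
      refine Matrix.det_zero_of_row_eq hst ?_
      funext k
      simp only [Matrix.of_apply]
      rw [hs, ht, h]
    · rw [mnr, dif_neg hc]
  rw [YS, h0, zero_mul, zero_pow (by norm_num)]

theorem G_props {m i : ℕ} (hi : 3 ≤ i) (him : i ≤ m) {al be ga c : ℕ}
    (hc : al + ((2 * i).choose i - 1) * be + (2 * i).choose i * (1 + ga) = c) :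
    (F1 him ^ al * F2 him ^ be * F3 him ^ (1 + ga)) ∈ MP (2 * i - 1 + 1) m (2 * c) ∧
    (∀ (σ : Equiv.Perm (Fin (2 * i - 1 + 1))) p,
      (F1 him ^ al * F2 him ^ be * F3 him ^ (1 + ga)) (fun j => p (σ j)) =
        (F1 him ^ al * F2 him ^ be * F3 him ^ (1 + ga)) p) ∧
    HWF (2 * i - 1 + 1) m ((4 * c) • om m i) (F1 him ^ al * F2 him ^ be * F3 him ^ (1 + ga)) ∧
    (∀ p (u v : Fin (2 * i - 1 + 1)), u ≠ v → p u = p v →
      (F1 him ^ al * F2 him ^ be * F3 him ^ (1 + ga)) p = 0) :=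
  G_props_of hi him (fun S hS => YS_MP (by omega) him hS) (fun S hS => YS_HWF (by omega) him hS)
    (fun S s p => YS_perm him S s p)
    (fun S _ u hu v hv huv p h => YS_diag him hu hv huv h) hc

end Vale.Agent.P181.FR
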